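import Vale.Agent.P028.Main

namespace Vale.Agent.Results.P028.FewPrimes

open MeasureTheory

/-- The reals `x` with `|q x - a - γ q| < ψ q` solvable in `a` for infinitely many `q ≥ 1`. -/
def W (γ ψ : ℕ → ℝ) : Set ℝ :=
  {x | {q : ℕ | 0 < q ∧ ∃ a : ℤ, |q * x - a - γ q| < ψ q}.Infinite}

theorem result :
    (∀ (k : ℕ) (γ : ℝ) (ψ : ℕ → ℝ), (∀ q, 0 ≤ ψ q) → (∀ q, ψ q ≠ 0 → q.primeFactors.card ≤ k) →
      (¬Summable fun q : ℕ => (Nat.totient q : ℝ) / q * ψ q) → volume (W (fun _ => γ) ψ)ᶜ = 0) ∧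
    ∀ c : ℝ, 2 < c → ∀ γ ψ : ℕ → ℝ, (∀ q, 0 ≤ ψ q) →
      (¬Summable fun q : ℕ => ψ q / c ^ q.primeFactors.card) → volume (W γ ψ)ᶜ = 0 := by
  refine ⟨fun k γ ψ h0 hk h => Vale.Agent.P028.full_real (c := 3) (by norm_num) _ h0 fun hs => h ?_,
    fun c hc γ ψ h0 h => Vale.Agent.P028.full_real hc γ h0 h⟩
  refine Summable.of_nonneg_of_le (fun q => mul_nonneg (by positivity) (h0 q)) (fun q => ?_)
    (hs.mul_left (3 ^ k))
  have h1 : (Nat.totient q : ℝ) / q ≤ 1 :=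
    div_le_one_of_le₀ (by exact_mod_cast Nat.totient_le q) (by positivity)
  refine (mul_le_of_le_one_left (h0 q) h1).trans ?_
  by_cases h2 : ψ q = 0
  · simp [h2]
  · rw [← mul_div_assoc, le_div_iff₀ (by positivity), mul_comm]
    exact mul_le_mul_of_nonneg_right (pow_le_pow_right₀ (by norm_num) (hk q h2)) (h0 q)

end Vale.Agent.Results.P028.FewPrimes
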