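import Vale.Agent.P028.Core

namespace Vale.Agent.Results.P028.ThinSupport

open MeasureTheory Finset

theorem result (γ ψ : ℕ → ℝ) (h0 : ∀ q, 0 ≤ ψ q)
    (h : (∃ K : ℕ, (∀ q, ψ q ≠ 0 → (Nat.divisors q).card ≤ K) ∧
        ¬Summable fun q : ℕ => (Nat.totient q : ℝ) / q * ψ q) ∨
      (∃ (S : Set ℕ) (C : ℝ), (∀ r ∈ S,
        ∑ q ∈ Ico 1 r, S.indicator (fun q => (Nat.gcd q r : ℝ)) q ≤ C * r) ∧
        ¬Summable (S.indicator ψ)) ∨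
      ∀ ε : ℝ, 0 < ε → ∀ N : ℕ, ∃ T : Finset ℕ, (∀ q ∈ T, N < q) ∧
        ∑ r ∈ T, min (ψ r) 1 * (1 + 2 * ∑ q ∈ T.filter (· < r), (Nat.gcd q r : ℝ) / r) <
          ε * (∑ r ∈ T, min (ψ r) 1) ^ 2) :
    ∀ᵐ x : ℝ, {q : ℕ | 0 < q ∧ |q * x - γ q - round (q * x - γ q)| < ψ q}.Infinite := by
  rcases h with ⟨K, h1, h2⟩ | ⟨S, C, h1, h2⟩ | h
  · exact Vale.Agent.P028T.few γ ψ h0 K h1 h2
  · exact Vale.Agent.P028T.thin γ ψ h0 S C h1 h2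
  · exact Vale.Agent.P028T.crit γ ψ h0 h

end Vale.Agent.Results.P028.ThinSupport
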